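import Vale.Agent.P178.H51.Final

/-!
Gersten's conjecture is false: for every odd prime `p` there is a regular local ring `A` of
dimension three and of mixed characteristic `(0, p)`, with `p` in the square of the maximal ideal,
such that `K₃(A) → K₃(Frac A)` is not injective. Here `K n R = π_{n+1}(B Q P(R), 0)` is Quillen's
algebraic K-group, defined by the Q-construction.

The ring is the localization of `ℤ[x, c, j] / (x c - Φ_p(j))` at the maximal ideal
`(p, x, c, j - 1)`.
-/

namespace Vale.Agent.Results.P178.GerstenFalse

open Vale.Agent.P178.QK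

theorem result (p : ℕ) [Fact p.Prime] (hp : p ≠ 2) :
    ∃ (A : Type) (_ : CommRing A) (_ : IsDomain A) (_ : IsRegularLocalRing A),
      ringKrullDim A = 3 ∧ CharZero A ∧ CharP (IsLocalRing.ResidueField A) p ∧
      (p : A) ∈ IsLocalRing.maximalIdeal A ^ 2 ∧
      ¬ Function.Injective (K.map 3 (algebraMap A (FractionRing A))) :=
  ⟨Vale.Agent.P178.H815.AA p, inferInstance, inferInstance, inferInstance,
    Vale.Agent.P178.H815.ringKrullDim_AA p, Vale.Agent.P178.H815.charZero_AA p,
    Vale.Agent.P178.H51.charP_residueField p hp, Vale.Agent.P178.H815.p_mem_sq p hp,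
    Vale.Agent.P178.H51.K_three_not_injective p hp⟩

end Vale.Agent.Results.P178.GerstenFalse
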